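import Vale.Agent.P196.Main

namespace Vale.Agent.Results.P196.ClosureNoGo

open Vale.Agent.P196

/-- Every finitely presented simple group lying in the smallest class of groups that contains the
finite and the abelian groups and is closed under subgroups, extensions and local embeddability
is finite. -/
theorem result : ∀ (G : Type) [Group G] [IsSimpleGroup G] [Group.IsFinitelyPresented G],
    InClosure G → Finite G := by
  intro G _ _ _ hG
  exact finite_of_embeds hG G (MonoidHom.id G) Function.injective_id

end Vale.Agent.Results.P196.ClosureNoGo
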